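import Vale.Agent.P002.RDense
import Vale.Agent.P002.Bdry
import Vale.Agent.P002.BdryDefs

/-! P002: one-field potential density of integral points of SL_r character varieties in every
rank r: (A) without boundary conditions, for finite direct products of finite free products of
finite abelian and infinite cyclic groups; (B) with arbitrary quasi-unipotent boundary classes,
for finitely generated abelian groups. -/

namespace Vale.Agent.Results.P002.AllRanks

open Matrix Vale.Agent.P002

theorem result :
    -- (A) no boundary conditions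
    (∀ (k : ℕ) (l : Fin k → ℕ) (G : (j : Fin k) → Fin (l j) → Type)
      [∀ j a, CommGroup (G j a)],
      (∀ j a, Finite (G j a) ∨ Nonempty (G j a ≃* Multiplicative ℤ)) →
      ∀ (Γ : Type) [Group Γ], Nonempty (Γ ≃* ((j : Fin k) → Monoid.CoprodI (G j))) →
      ∀ r : ℕ, ∃ L : IntermediateField ℚ ℂ, FiniteDimensional ℚ L ∧
        ∀ F ∈ RegularFunctions Γ r, ConjugationInvariant F →
          (∀ ρ : Γ →* SpecialLinearGroup (Fin r) ℂ, IntegralOver L ρ → F ρ = 0) →
          ∀ ρ : Γ →* SpecialLinearGroup (Fin r) ℂ, Semisimple ρ → F ρ = 0) ∧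
    -- (B) arbitrary quasi-unipotent boundary classes, abelian groups
    (∀ (Γ : Type) [CommGroup Γ] [Group.FG Γ] (r s : ℕ) (g : Fin s → Γ)
      (c : Fin s → SpecialLinearGroup (Fin r) ℂ), (∀ l, QuasiUnipotent (c l)) →
      ∃ L : IntermediateField ℚ ℂ, FiniteDimensional ℚ L ∧
        ∀ F ∈ RegularFunctions Γ r, ConjugationInvariant F →
          (∀ ρ : Γ →* SpecialLinearGroup (Fin r) ℂ, IntegralOver L ρ → Semisimple ρ →
            (∀ l, IsConj (c l) (ρ (g l))) → F ρ = 0) →
          ∀ ρ : Γ →* SpecialLinearGroup (Fin r) ℂ, Semisimple ρ →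
            (∀ l, IsConj (c l) (ρ (g l))) → F ρ = 0) := by
  constructor
  · intro k l G _ hG Γ _ hφ r
    obtain ⟨φ⟩ := hφ
    classical
    obtain ⟨L, hfin, hL⟩ := exists_good (r + ∑ j, ∑ a, Nat.card (G j a))
    refine ⟨L, hfin, fun F hF hinv h0 ρ hρ => ?_⟩
    refine main (Nat.le_add_right r (∑ j, ∑ a, Nat.card (G j a))) ?_ F hF hinv h0 ρ hρ
    refine dense_congr φ.symm (dense_pi _ L k (fun j => Monoid.CoprodI (G j)) fun j => ?_)
    refine (rdense_coprod (G j) fun a => ?_).dense
    rcases hG j a with h | h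
    · refine rdense_abelian hL (G j a) ?_
      have h1 : Nat.card (G j a) ≤ ∑ a, Nat.card (G j a) :=
        Finset.single_le_sum (f := fun a => Nat.card (G j a)) (fun _ _ => Nat.zero_le _)
          (Finset.mem_univ a)
      have h2 : ∑ a, Nat.card (G j a) ≤ ∑ j, ∑ a, Nat.card (G j a) :=
        Finset.single_le_sum (f := fun j => ∑ a, Nat.card (G j a)) (fun _ _ => Nat.zero_le _)
          (Finset.mem_univ j)
      omega
    · obtain ⟨ψ⟩ := h
      exact rdense_int hL _ ψ
  · intro Γ _ _ r s g c hc
    exact abel_boundary Γ r s g c hc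

end Vale.Agent.Results.P002.AllRanks
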