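import Vale.Agent.P002.RDense

/-! P002: integral points are Zariski dense in every SL_r character variety of a finite direct
product of finite free products of finite abelian and infinite cyclic groups. -/

namespace Vale.Agent.Results.P002.ProductGroups

open Matrix Vale.Agent.P002

theorem result (k : ℕ) (l : Fin k → ℕ) (G : (j : Fin k) → Fin (l j) → Type)
    [∀ j a, CommGroup (G j a)]
    (hG : ∀ j a, Finite (G j a) ∨ Nonempty (G j a ≃* Multiplicative ℤ))
    (Γ : Type) [Group Γ] (φ : Γ ≃* ((j : Fin k) → Monoid.CoprodI (G j))) (r : ℕ) :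
    ∃ L : IntermediateField ℚ ℂ, FiniteDimensional ℚ L ∧
      ∀ F ∈ RegularFunctions Γ r, ConjugationInvariant F →
        (∀ ρ : Γ →* SpecialLinearGroup (Fin r) ℂ, IntegralOver L ρ → F ρ = 0) →
        ∀ ρ : Γ →* SpecialLinearGroup (Fin r) ℂ, Semisimple ρ → F ρ = 0 := by
  classical
  obtain ⟨L, hfin, hL⟩ := exists_good (r + ∑ j, ∑ a, Nat.card (G j a))
  refine ⟨L, hfin, fun F hF hinv h0 ρ hρ => ?_⟩
  refine main (Nat.le_add_right r (∑ j, ∑ a, Nat.card (G j a))) ?_ F hF hinv h0 ρ hρ
  refine dense_congr φ.symm (dense_pi _ L k (fun j => Monoid.CoprodI (G j)) fun j => ?_)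
  refine (rdense_coprod (G j) fun a => ?_).dense
  rcases hG j a with h | h
  · refine rdense_abelian hL (G j a) ?_
    have h1 : Nat.card (G j a) ≤ ∑ a, Nat.card (G j a) :=
      Finset.single_le_sum (f := fun a => Nat.card (G j a)) (fun _ _ => Nat.zero_le _)
        (Finset.mem_univ a)
    have h2 : ∑ a, Nat.card (G j a) ≤ ∑ j, ∑ a, Nat.card (G j a) :=
      Finset.single_le_sum (f := fun j => ∑ a, Nat.card (G j a)) (fun _ _ => Nat.zero_le _)
        (Finset.mem_univ j)
    omega
  · obtain ⟨ψ⟩ := h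
    exact rdense_int hL _ ψ

end Vale.Agent.Results.P002.ProductGroups
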